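import Vale.Agent.P147.Main1

/-!
# P147: openness of the set of directions violating the zero-one law
-/

open MeasureTheory ProbabilityTheory Filter
open scoped ENNReal Topology

namespace Vale.Agent.Results.P147.OpenCone

open Vale.P147

/-- For an iid elliptic environment law on `ℤ^d` the set of directions violating the directional
zero-one law is open; for such a direction escape takes place inside a deterministic cone; and the
zero-one law for all integer directions implies it for all real directions. -/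
theorem result {d : ℕ} (μ : Measure (Row d)) [IsProbabilityMeasure μ] (hμ : Elliptic μ) :
    IsOpen {ℓ : Fin d → ℝ | 0 < annealed μ (escape ℓ) ∧ annealed μ (escape ℓ) < 1} ∧
    (∀ ℓ : Fin d → ℝ, 0 < annealed μ (escape ℓ) → annealed μ (escape ℓ) < 1 →
      ∃ c : ℝ, 0 < c ∧ ∀ᵐ ω ∂envLaw μ, ∀ᵐ X ∂quenched ω 0, X ∈ escape ℓ →
        ∀ᶠ n in atTop, ∀ j, c * |(X n j : ℝ)| ≤ level ℓ (X n)) ∧
    ((∀ m : Fin d → ℤ, m ≠ 0 → annealed μ (escape fun i => (m i : ℝ)) = 0 ∨
        annealed μ (escape fun i => (m i : ℝ)) = 1) →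
      ∀ ℓ : Fin d → ℝ, annealed μ (escape ℓ) = 0 ∨ annealed μ (escape ℓ) = 1) :=
  ⟨isOpen_viol μ hμ, fun ℓ h1 h2 => cone_viol μ hμ ℓ ⟨h1, h2⟩,
    fun h ℓ => int_reduction μ hμ h ℓ⟩

end Vale.Agent.Results.P147.OpenCone
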