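import Vale.Agent.P147.Main2

/-!
# P147: two-ray dichotomy and reduction of the zero-one law to the coordinate directions
-/

open MeasureTheory ProbabilityTheory Filter
open scoped ENNReal Topology

namespace Vale.Agent.Results.P147.TwoRay

open Vale.P147

/-- For every iid elliptic environment law on `ℤ^d`: either the directional zero-one law holds in
all directions, or there is a deterministic unit vector `ν` such that almost surely the walk
escapes with asymptotic direction `ν` or `-ν`, the zero-one law fails in every direction which is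
not orthogonal to `ν`, and there is no escape in the directions orthogonal to `ν`. In particular
the zero-one law in the `d` coordinate directions implies it in all directions. -/
theorem result {d : ℕ} (μ : Measure (Row d)) [IsProbabilityMeasure μ] (hμ : Elliptic μ) :
    ((∀ ℓ : Fin d → ℝ, annealed μ (escape ℓ) = 0 ∨ annealed μ (escape ℓ) = 1) ∨
      ∃ ν : Fin d → ℝ, ∑ j, ν j ^ 2 = 1 ∧
        (∀ᵐ ω ∂envLaw μ, ∀ᵐ X ∂quenched ω 0,
          (X ∈ escape ν ∧ ∀ j, Tendsto (fun n => (X n j : ℝ) / enorm2 (X n)) atTop (𝓝 (ν j))) ∨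
          (X ∈ escape (-ν) ∧
            ∀ j, Tendsto (fun n => (X n j : ℝ) / enorm2 (X n)) atTop (𝓝 (-ν j)))) ∧
        (∀ ℓ : Fin d → ℝ, ∑ j, ν j * ℓ j ≠ 0 →
          0 < annealed μ (escape ℓ) ∧ annealed μ (escape ℓ) < 1) ∧
        (∀ ℓ : Fin d → ℝ, ∑ j, ν j * ℓ j = 0 → annealed μ (escape ℓ) = 0)) ∧
    ((∀ i : Fin d, annealed μ (escape (Pi.single i (1 : ℝ))) = 0 ∨
        annealed μ (escape (Pi.single i (1 : ℝ))) = 1) →
      ∀ ℓ : Fin d → ℝ, annealed μ (escape ℓ) = 0 ∨ annealed μ (escape ℓ) = 1) :=
  ⟨two_ray_main μ hμ, fun h ℓ => coord_reduction μ hμ h ℓ⟩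

end Vale.Agent.Results.P147.TwoRay
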